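import Vale.Agent.Lib.Helper8.Snaky.Game

namespace Vale.Agent.Lib.Helper8.Snaky

theorem pair_in (t : ℤ × ℤ) (a b : ℤ) (swap : Bool) (p q : ℤ × ℤ)
    (hp : p ∈ cellList t a b swap) (hq : q ∈ cellList t a b swap)
    (hm : mate p = q) (hne : q ≠ p) :
    ∃ p ∈ snaky.image (fun p => t + signedPerm a b swap p),
      mate p ∈ snaky.image (fun p => t + signedPerm a b swap p) ∧ mate p ≠ p := by
  refine ⟨p, (mem_copy_iff t a b swap p).2 hp, ?_, ?_⟩
  · rw [hm]; exact (mem_copy_iff t a b swap q).2 hq
  · rw [hm]; exact hne

/-- Every allowed copy that lies in two consecutive rows, or inside one of the bands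
`5 j ≤ y < 5 j + 5`, contains a pair of mates. -/
theorem copy_has_pair (C : Finset (ℤ × ℤ)) (hC : IsCopy C)
    (h : (∃ y : ℤ, ∀ p ∈ C, p.2 = y ∨ p.2 = y + 1) ∨
      (∃ j : ℤ, ∀ p ∈ C, 5 * j ≤ p.2 ∧ p.2 < 5 * j + 5)) :
    ∃ p ∈ C, mate p ∈ C ∧ mate p ≠ p := by
  obtain ⟨⟨x, y⟩, a, b, swap, ha, hb, rfl⟩ := hC
  cases swap
  · -- horizontal copy: four consecutive cells in a row
    rcases ha with rfl | rfl
    · rcases row_pair x y with h1 | h1 | h1
      · exact pair_in _ _ _ _ (x, y) (x + 1, y) (by simp [cellList, signedPerm] <;> omega)
          (by simp [cellList, signedPerm] <;> omega) h1 (by intro h; injection h with h1 h2; omega)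
      · exact pair_in _ _ _ _ (x + 1, y) (x + 2, y) (by simp [cellList, signedPerm] <;> omega)
          (by simp [cellList, signedPerm] <;> omega) h1 (by intro h; injection h with h1 h2; omega)
      · exact pair_in _ _ _ _ (x + 2, y) (x + 3, y) (by simp [cellList, signedPerm] <;> omega)
          (by simp [cellList, signedPerm] <;> omega) h1 (by intro h; injection h with h1 h2; omega)
    · rcases row_pair (x - 3) y with h1 | h1 | h1
      · exact pair_in _ _ _ _ (x - 3, y) (x - 3 + 1, y) (by simp [cellList, signedPerm] <;> omega)
          (by simp [cellList, signedPerm] <;> omega) h1 (by intro h; injection h with h1 h2; omega)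
      · exact pair_in _ _ _ _ (x - 3 + 1, y) (x - 3 + 2, y) (by simp [cellList, signedPerm] <;> omega)
          (by simp [cellList, signedPerm] <;> omega) h1 (by intro h; injection h with h1 h2; omega)
      · exact pair_in _ _ _ _ (x - 3 + 2, y) (x - 3 + 3, y) (by simp [cellList, signedPerm] <;> omega)
          (by simp [cellList, signedPerm] <;> omega) h1 (by intro h; injection h with h1 h2; omega)
  · -- vertical copy
    have m0 : (x, y) ∈ snaky.image (fun p => (x, y) + signedPerm a b true p) := by
      rw [mem_copy_iff]; simp [cellList, signedPerm]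
    have m1 : (x, y + b) ∈ snaky.image (fun p => (x, y) + signedPerm a b true p) := by
      rw [mem_copy_iff]; simp [cellList, signedPerm]
    have m2 : (x, y + 2 * b) ∈ snaky.image (fun p => (x, y) + signedPerm a b true p) := by
      rw [mem_copy_iff]; simp [cellList, signedPerm]; omega
    have m4 : (x + a, y + 4 * b) ∈ snaky.image (fun p => (x, y) + signedPerm a b true p) := by
      rw [mem_copy_iff]; simp [cellList, signedPerm]; omega
    rcases h with ⟨y0, h⟩ | ⟨j, h⟩
    · exfalso
      have h0 := h _ m0
      have h1 := h _ m1
      have h2 := h _ m2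
      simp only at h0 h1 h2
      rcases hb with rfl | rfl <;> omega
    · have h0 := h _ m0
      have h4 := h _ m4
      simp only at h0 h4
      have h3 : x % 3 = 0 ∨ x % 3 = 1 ∨ x % 3 = 2 := by omega
      have e0 : (5 * j) % 5 = 0 := by omega
      have e1 : (5 * j + 1) % 5 = 1 := by omega
      have e3 : (5 * j + 3) % 5 = 3 := by omega
      rcases hb with rfl | rfl
      · have hy : y = 5 * j := by omega
        subst hy
        rcases h3 with h3 | h3 | h3
        · exact pair_in _ _ _ _ (x, 5 * j) (x, 5 * j + 1) (by simp [cellList, signedPerm] <;> omega)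
            (by simp [cellList, signedPerm] <;> omega) (by simp [mate, e0, h3]) (by intro h; injection h with h1 h2; omega)
        · rcases ha with rfl | rfl
          · exact pair_in _ _ _ _ (x, 5 * j + 3) (x + 1, 5 * j + 3)
              (by simp [cellList, signedPerm] <;> omega) (by simp [cellList, signedPerm] <;> omega)
              (by simp [mate, e3, h3]) (by intro h; injection h with h1 h2; omega)
          · have hx : (x - 1) % 3 = 0 := by omega
            exact pair_in _ _ _ _ (x - 1, 5 * j + 3) (x - 1, 5 * j + 3 + 1)
              (by simp [cellList, signedPerm] <;> omega) (by simp [cellList, signedPerm] <;> omega)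
              (by simp [mate, e3, hx]) (by intro h; injection h with h1 h2; omega)
        · rcases ha with rfl | rfl
          · have hx : (x + 1) % 3 = 0 := by omega
            exact pair_in _ _ _ _ (x + 1, 5 * j + 3) (x + 1, 5 * j + 3 + 1)
              (by simp [cellList, signedPerm] <;> omega) (by simp [cellList, signedPerm] <;> omega)
              (by simp [mate, e3, hx]) (by intro h; injection h with h1 h2; omega)
          · exact pair_in _ _ _ _ (x, 5 * j + 3) (x - 1, 5 * j + 3)
              (by simp [cellList, signedPerm] <;> omega) (by simp [cellList, signedPerm] <;> omega)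
              (by simp [mate, e3, h3]) (by intro h; injection h with h1 h2; omega)
      · have hy : y = 5 * j + 4 := by omega
        subst hy
        rcases h3 with h3 | h3 | h3
        · exact pair_in _ _ _ _ (x, 5 * j + 3) (x, 5 * j + 3 + 1)
            (by simp [cellList, signedPerm] <;> omega) (by simp [cellList, signedPerm] <;> omega)
            (by simp [mate, e3, h3]) (by intro h; injection h with h1 h2; omega)
        · rcases ha with rfl | rfl
          · exact pair_in _ _ _ _ (x, 5 * j + 1) (x + 1, 5 * j + 1)
              (by simp [cellList, signedPerm] <;> omega) (by simp [cellList, signedPerm] <;> omega)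
              (by simp [mate, e1, h3]) (by intro h; injection h with h1 h2; omega)
          · have hx : (x - 1) % 3 = 0 := by omega
            exact pair_in _ _ _ _ (x - 1, 5 * j) (x - 1, 5 * j + 1)
              (by simp [cellList, signedPerm] <;> omega) (by simp [cellList, signedPerm] <;> omega)
              (by simp [mate, e0, hx]) (by intro h; injection h with h1 h2; omega)
        · rcases ha with rfl | rfl
          · have hx : (x + 1) % 3 = 0 := by omega
            exact pair_in _ _ _ _ (x + 1, 5 * j) (x + 1, 5 * j + 1)
              (by simp [cellList, signedPerm] <;> omega) (by simp [cellList, signedPerm] <;> omega)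
              (by simp [mate, e0, hx]) (by intro h; injection h with h1 h2; omega)
          · exact pair_in _ _ _ _ (x, 5 * j + 1) (x - 1, 5 * j + 1)
              (by simp [cellList, signedPerm] <;> omega) (by simp [cellList, signedPerm] <;> omega)
              (by simp [mate, e1, h3]) (by intro h; injection h with h1 h2; omega)

end Vale.Agent.Lib.Helper8.Snaky
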