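import Vale.Agent.Lib.Helper8.Snaky.Sound6

namespace Vale.Agent.Lib.Helper8.Snaky

theorem inSq_iff (p : ℤ × ℤ) : inSq p = true ↔ 0 ≤ p.1 ∧ p.1 < 6 ∧ 0 ≤ p.2 ∧ p.2 < 6 := by
  unfold inSq
  simp only [Bool.and_eq_true, decide_eq_true_eq]
  tauto

theorem idx6_lt {p : ℤ × ℤ} (hp : inSq p = true) : idx6 p < 36 := by
  rw [inSq_iff] at hp
  unfold idx6
  omega

theorem idx6_inj {p q : ℤ × ℤ} (hp : inSq p = true) (hq : inSq q = true)
    (h : idx6 p = idx6 q) : p = q := by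
  rw [inSq_iff] at hp hq
  unfold idx6 at h
  ext <;> omega

set_option maxRecDepth 100000 in
theorem params6_signs : ∀ q ∈ params6,
    (q.2.1 = 1 ∨ q.2.1 = -1) ∧ (q.2.2.1 = 1 ∨ q.2.2.1 = -1) := by
  decide +kernel

theorem card_two_unique {e : Finset (ℤ × ℤ)} (h : e.card = 2) {p q q' : ℤ × ℤ}
    (hp : p ∈ e) (hq : q ∈ e) (hq' : q' ∈ e) (hpq : p ≠ q) (hpq' : p ≠ q') : q = q' := by
  obtain ⟨x, y, hxy, rfl⟩ := Finset.card_eq_two.1 h
  simp only [Finset.mem_insert, Finset.mem_singleton] at hp hq hq'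
  rcases hp with rfl | rfl <;> rcases hq with rfl | rfl <;> rcases hq' with rfl | rfl <;>
    first | rfl | exact absurd rfl hpq | exact absurd rfl hpq'

/-- There is no pairing strategy on any board containing the 6 x 6 square. -/
theorem no_pairing6 (B : Set (ℤ × ℤ))
    (hB : ∀ p : ℤ × ℤ, 0 ≤ p.1 → p.1 < 6 → 0 ≤ p.2 → p.2 < 6 → p ∈ B)
    (P : Set (Finset (ℤ × ℤ))) (hP : IsPairing B P) : False := by
  obtain ⟨hcard, hdisj, hcov⟩ := hP
  apply no_sol6 (fun a b => ∃ e ∈ P, ∃ p q : ℤ × ℤ, p ≠ q ∧ p ∈ e ∧ q ∈ e ∧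
    inSq p = true ∧ inSq q = true ∧ idx6 p = a ∧ idx6 q = b)
  refine ⟨?_, ?_, ?_, ?_, ?_, ?_, ?_⟩
  · rintro a b ⟨e, he, p, q, hpq, hp, hq, hsp, hsq, rfl, rfl⟩
    exact ⟨e, he, q, p, hpq.symm, hq, hp, hsq, hsp, rfl, rfl⟩
  · rintro a b c ⟨e, he, p, q, hpq, hp, hq, hsp, hsq, rfl, rfl⟩
      ⟨e', he', p', q', hpq', hp', hq', hsp', hsq', hpp, rfl⟩
    have hpp' : p' = p := idx6_inj hsp' hsp hpp
    subst hpp'
    have hee : e = e' := by
      by_contra hne
      have := hdisj e he e' he' hne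
      exact Finset.disjoint_left.1 this hp hp'
    subst hee
    rw [card_two_unique (hcard e he).1 hp hq hq' hpq hpq']
  · rintro a ⟨e, he, p, q, hpq, hp, hq, hsp, hsq, rfl, hqa⟩
    exact hpq (idx6_inj hsp hsq hqa.symm)
  · rintro a b ⟨e, he, p, q, hpq, hp, hq, hsp, hsq, rfl, rfl⟩
    exact idx6_lt hsp
  · intro a b _
    exact bit_zero a
  · intro a b _
    exact bit_zero _
  · intro i hi
    right
    have hmem : cellsOf i ∈ gen6 := by
      rw [← table_gen]
      exact List.mem_map_of_mem (List.mem_range.2 hi)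
    unfold gen6 at hmem
    rw [List.mem_filterMap] at hmem
    obtain ⟨⟨t, a, b, sw⟩, hq, hsome⟩ := hmem
    obtain ⟨ha, hb⟩ := params6_signs _ hq
    simp only at ha hb hsome
    split_ifs at hsome with hall
    simp only [Option.some.injEq] at hsome
    rw [List.all_eq_true] at hall
    have hD : IsCopy (snaky.image (fun p => t + signedPerm a b sw p)) := ⟨t, a, b, sw, ha, hb, rfl⟩
    have hDB : (↑(snaky.image (fun p => t + signedPerm a b sw p)) : Set (ℤ × ℤ)) ⊆ B := by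
      intro p hp
      have hp' := (mem_copy_iff t a b sw p).1 (Finset.mem_coe.1 hp)
      have := (inSq_iff p).1 (hall p hp')
      exact hB p this.1 this.2.1 this.2.2.1 this.2.2.2
    obtain ⟨e, he, hsub⟩ := hcov _ hD hDB
    obtain ⟨x, y, hxy, rfl⟩ := Finset.card_eq_two.1 (hcard e he).1
    have hx := (mem_copy_iff t a b sw x).1 (hsub (by simp))
    have hy := (mem_copy_iff t a b sw y).1 (hsub (by simp))
    refine ⟨idx6 x, ?_, idx6 y, ?_, {x, y}, he, x, y, hxy, by simp, by simp, hall x hx, hall y hy,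
      rfl, rfl⟩
    · rw [← hsome]; exact List.mem_map_of_mem hx
    · rw [← hsome]; exact List.mem_map_of_mem hy

end Vale.Agent.Lib.Helper8.Snaky
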