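import Mathlib

namespace Vale.Agent.Lib.Helper8.Snaky

/-- The hexomino Snaky, as a set of cells of the square grid. -/
def snaky : Finset (ℤ × ℤ) := {(0, 0), (1, 0), (2, 0), (3, 0), (3, 1), (4, 1)}

/-- The eight signed permutation maps of the plane: `(x, y) ↦ (a x, b y)` or
`(x, y) ↦ (a y, b x)`, for signs `a, b`. -/
def signedPerm (a b : ℤ) (swap : Bool) (p : ℤ × ℤ) : ℤ × ℤ :=
  if swap then (a * p.2, b * p.1) else (a * p.1, b * p.2)

/-- `C` is an allowed copy of Snaky: `C = t + R(S)` for a translation `t` and a signed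
permutation `R`. -/
def IsCopy (C : Finset (ℤ × ℤ)) : Prop :=
  ∃ (t : ℤ × ℤ) (a b : ℤ) (swap : Bool), (a = 1 ∨ a = -1) ∧ (b = 1 ∨ b = -1) ∧
    C = snaky.image (fun p => t + signedPerm a b swap p)

/-- `P` is a pairing strategy for Breaker on the board `B`: a family of pairwise disjoint
two-element sets of cells of `B` such that every allowed copy inside `B` contains one of them. -/
def IsPairing (B : Set (ℤ × ℤ)) (P : Set (Finset (ℤ × ℤ))) : Prop :=
  (∀ e ∈ P, e.card = 2 ∧ (↑e : Set (ℤ × ℤ)) ⊆ B) ∧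
  (∀ e ∈ P, ∀ f ∈ P, e ≠ f → Disjoint e f) ∧
  ∀ C : Finset (ℤ × ℤ), IsCopy C → (↑C : Set (ℤ × ℤ)) ⊆ B → ∃ e ∈ P, e ⊆ C

/-- The six cells of the copy with parameters `t a b swap`, listed explicitly. -/
def cellList (t : ℤ × ℤ) (a b : ℤ) (swap : Bool) : List (ℤ × ℤ) :=
  [(0, 0), (1, 0), (2, 0), (3, 0), (3, 1), (4, 1)].map (fun p => t + signedPerm a b swap p)

theorem mem_copy_iff (t : ℤ × ℤ) (a b : ℤ) (swap : Bool) (q : ℤ × ℤ) :
    q ∈ snaky.image (fun p => t + signedPerm a b swap p) ↔ q ∈ cellList t a b swap := by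
  simp [snaky, cellList]


end Vale.Agent.Lib.Helper8.Snaky
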