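import Vale.Agent.Lib.Helper8.Snaky.Defs

namespace Vale.Agent.Lib.Helper8.Snaky

open Classical in
/-- Breaker's pairing answer: the mate of Maker's last move if it is still free,
otherwise an arbitrary free cell. -/
noncomputable def pairingStrategy (mate : ℤ × ℤ → ℤ × ℤ) (h : List (ℤ × ℤ)) : ℤ × ℤ :=
  if mate (h.getLastD (0, 0)) ∈ h then
    Classical.choose (Infinite.exists_notMem_finset h.toFinset)
  else mate (h.getLastD (0, 0))

theorem pairingStrategy_legal (mate : ℤ × ℤ → ℤ × ℤ) (h : List (ℤ × ℤ)) :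
    pairingStrategy mate h ∉ h := by
  unfold pairingStrategy
  split_ifs with hm
  · have := Classical.choose_spec (Infinite.exists_notMem_finset h.toFinset)
    simpa using this
  · exact hm

theorem getLastD_history (m : ℕ → ℤ × ℤ) (n : ℕ) :
    ((List.range (n + 1)).map m).getLastD (0, 0) = m n := by
  simp [List.range_succ]

/-- If Maker claims `p` before `mate p`, Breaker (following the pairing strategy) has taken
`mate p` in between, or it was taken before: contradiction with the play being injective. -/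
theorem pairing_blocks_aux (mate : ℤ × ℤ → ℤ × ℤ)
    (m : ℕ → ℤ × ℤ) (hm : Function.Injective m)
    (hτ : ∀ k, m (2 * k + 1) = pairingStrategy mate ((List.range (2 * k + 1)).map m))
    (p : ℤ × ℤ) (k l : ℕ) (hkl : k < l) (hk : m (2 * k) = p) (hl : m (2 * l) = mate p) :
    False := by
  have h1 := hτ k
  unfold pairingStrategy at h1
  rw [getLastD_history, hk] at h1
  split_ifs at h1 with hmem
  · rw [List.mem_map] at hmem
    obtain ⟨i, hi, hi2⟩ := hmem
    rw [List.mem_range] at hi
    have : i = 2 * l := hm (by rw [hi2, hl])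
    omega
  · have : 2 * k + 1 = 2 * l := hm (by rw [h1, hl])
    omega

theorem pairing_blocks (mate : ℤ × ℤ → ℤ × ℤ) (hinv : ∀ p, mate (mate p) = p)
    (m : ℕ → ℤ × ℤ) (hm : Function.Injective m)
    (hτ : ∀ k, m (2 * k + 1) = pairingStrategy mate ((List.range (2 * k + 1)).map m))
    (p : ℤ × ℤ) (hp : mate p ≠ p) (k l : ℕ) (hk : m (2 * k) = p) (hl : m (2 * l) = mate p) :
    False := by
  rcases lt_trichotomy k l with h | h | h
  · exact pairing_blocks_aux mate m hm hτ p k l h hk hl
  · subst h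
    exact hp (by rw [← hl, hk])
  · exact pairing_blocks_aux mate m hm hτ (mate p) l k h hl (by rw [hinv, hk])

/-- The pairing used by Breaker: period `3` in `x` and `5` in `y`. -/
def mate (p : ℤ × ℤ) : ℤ × ℤ :=
  if p.2 % 5 = 2 then
    (if p.1 % 3 = 2 then (p.1 + 1, p.2) else if p.1 % 3 = 0 then (p.1 - 1, p.2) else p)
  else if p.1 % 3 = 1 then (p.1 + 1, p.2)
  else if p.1 % 3 = 2 then (p.1 - 1, p.2)
  else if p.2 % 5 = 0 ∨ p.2 % 5 = 3 then (p.1, p.2 + 1) else (p.1, p.2 - 1)

theorem mate_mate (p : ℤ × ℤ) : mate (mate p) = p := by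
  obtain ⟨x, y⟩ := p
  have h3 : x % 3 = 0 ∨ x % 3 = 1 ∨ x % 3 = 2 := by omega
  have h5 : y % 5 = 0 ∨ y % 5 = 1 ∨ y % 5 = 2 ∨ y % 5 = 3 ∨ y % 5 = 4 := by omega
  have a1 : ∀ c : ℤ, x % 3 = c → (x + 1) % 3 = (c + 1) % 3 := by intro c h; omega
  have a2 : ∀ c : ℤ, x % 3 = c → (x - 1) % 3 = (c - 1) % 3 := by intro c h; omega
  have b1 : ∀ c : ℤ, y % 5 = c → (y + 1) % 5 = (c + 1) % 5 := by intro c h; omega
  have b2 : ∀ c : ℤ, y % 5 = c → (y - 1) % 5 = (c - 1) % 5 := by intro c h; omega
  rcases h3 with h3 | h3 | h3 <;> rcases h5 with h5 | h5 | h5 | h5 | h5 <;>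
    simp [mate, h3, h5, a1 _ h3, a2 _ h3, b1 _ h5, b2 _ h5]

/-- Among four horizontally consecutive cells, two consecutive ones are mates. -/
theorem row_pair (x y : ℤ) :
    mate (x, y) = (x + 1, y) ∨ mate (x + 1, y) = (x + 2, y) ∨ mate (x + 2, y) = (x + 3, y) := by
  have h3 : x % 3 = 0 ∨ x % 3 = 1 ∨ x % 3 = 2 := by omega
  have a1 : ∀ c : ℤ, x % 3 = c → (x + 1) % 3 = (c + 1) % 3 := by intro c h; omega
  have a2 : ∀ c : ℤ, x % 3 = c → (x + 2) % 3 = (c + 2) % 3 := by intro c h; omega
  by_cases h5 : y % 5 = 2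
  · rcases h3 with h | h | h
    · right; right
      simp [mate, h5, a2 _ h]; omega
    · right; left
      simp [mate, h5, a1 _ h]; omega
    · left
      simp [mate, h5, h]
  · rcases h3 with h | h | h
    · right; left
      simp [mate, h5, a1 _ h]; omega
    · left
      simp [mate, h5, h]
    · right; right
      simp [mate, h5, a2 _ h]; omega

end Vale.Agent.Lib.Helper8.Snaky
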