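import Vale.Agent.Lib.Helper8.Snaky.Cert6

namespace Vale.Agent.Lib.Helper8.Snaky

theorem bit_eq (x i : ℕ) : bit x i = x.testBit i := by
  unfold bit Nat.testBit
  have h : Nat.land 1 (Nat.shiftRight x i) = (x >>> i) % 2 := Nat.one_and_eq_mod_two _
  have h' : 1 &&& (x >>> i) = (x >>> i) % 2 := Nat.one_and_eq_mod_two _
  rw [h, h']
  rcases Nat.mod_two_eq_zero_or_one (x >>> i) with h2 | h2 <;> rw [h2] <;> rfl

theorem bit_lor (x y i : ℕ) : bit (Nat.lor x y) i = (bit x i || bit y i) := by
  rw [bit_eq, bit_eq, bit_eq]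
  exact Nat.testBit_or x y i

theorem bit_pow (a i : ℕ) : bit (Nat.pow 2 a) i = decide (a = i) := by
  rw [bit_eq]
  exact Nat.testBit_two_pow

theorem bit_zero (i : ℕ) : bit 0 i = false := by
  rw [bit_eq]
  exact Nat.zero_testBit i

theorem pairKey_eq (a b : ℕ) : pairKey a b = if a ≤ b then 36 * a + b else 36 * b + a := by
  unfold pairKey
  by_cases h : a ≤ b
  · rw [if_pos h, Nat.ble_eq_true_of_le h]; rfl
  · rw [if_neg h]
    have : Nat.ble a b = false := by
      rw [← Bool.not_eq_true]; intro h2; exact h (Nat.le_of_ble_eq_true h2)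
    rw [this]; rfl

theorem pairKey_inj {a b x y : ℕ} (ha : a < 36) (hb : b < 36) (hx : x < 36) (hy : y < 36)
    (h : pairKey a b = pairKey x y) : (a = x ∧ b = y) ∨ (a = y ∧ b = x) := by
  rw [pairKey_eq, pairKey_eq] at h
  split_ifs at h <;> omega

theorem pairMask_comm (a b : ℕ) : pairMask a b = pairMask b a := Nat.lor_comm _ _

theorem covered_iff (cm : ℕ) (ch : List ℕ) :
    covered cm ch = true ↔ ∃ pm ∈ ch, Nat.land pm cm = pm := by
  induction ch with
  | nil => simp [covered]
  | cons pm l ih =>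
    unfold covered
    by_cases h : Nat.land pm cm = pm
    · have : Nat.beq (Nat.land pm cm) pm = true := by rw [h]; exact Nat.beq_refl pm
      rw [this]
      simp only [cond_true, true_iff]
      exact ⟨pm, List.mem_cons_self, h⟩
    · have : Nat.beq (Nat.land pm cm) pm = false := by
        rw [← Bool.not_eq_true]; intro h2; exact h (Nat.eq_of_beq_eq_true h2)
      rw [this]
      simp only [cond_false]
      rw [ih]
      constructor
      · rintro ⟨q, hq, hq2⟩; exact ⟨q, List.mem_cons_of_mem _ hq, hq2⟩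
      · rintro ⟨q, hq, hq2⟩
        rcases List.mem_cons.1 hq with rfl | hq'
        · exact absurd hq2 h
        · exact ⟨q, hq', hq2⟩

theorem mem_freeCells (U : ℕ) (l : List ℕ) (x : ℕ) :
    x ∈ freeCells U l ↔ x ∈ l ∧ bit U x = false := by
  induction l with
  | nil => simp [freeCells]
  | cons c l ih =>
    unfold freeCells
    cases hc : bit U c
    · simp only [cond_false, List.mem_cons, ih]
      constructor
      · rintro (rfl | ⟨h1, h2⟩)
        · exact ⟨Or.inl rfl, hc⟩
        · exact ⟨Or.inr h1, h2⟩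
      · rintro ⟨rfl | h1, h2⟩
        · exact Or.inl rfl
        · exact Or.inr ⟨h1, h2⟩
    · simp only [cond_true, List.mem_cons, ih]
      constructor
      · rintro ⟨h1, h2⟩; exact ⟨Or.inr h1, h2⟩
      · rintro ⟨rfl | h1, h2⟩
        · rw [hc] at h2; exact absurd h2 (by simp)
        · exact ⟨h1, h2⟩

/-- `M` is the rest of a pairing compatible with the search state `(U, ch, F)`. -/
structure Sol (U : ℕ) (ch : List ℕ) (F : ℕ) (M : ℕ → ℕ → Prop) : Prop where
  symm : ∀ a b, M a b → M b a
  func : ∀ a b c, M a b → M a c → b = c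
  irrefl : ∀ a, ¬ M a a
  lt : ∀ a b, M a b → a < 36
  avoidU : ∀ a b, M a b → bit U a = false
  avoidF : ∀ a b, M a b → bit F (pairKey a b) = false
  cover : ∀ i, i < 80 → (∃ pm ∈ ch, Nat.land pm (maskOf i) = pm) ∨
    ∃ a ∈ cellsOf i, ∃ b ∈ cellsOf i, M a b

theorem cells_lt {i : ℕ} (hi : i < 80) {c : ℕ} (hc : c ∈ cellsOf i) : c < 36 := by
  have h := table_lt
  rw [List.all_eq_true] at h
  have h2 := h i (List.mem_range.2 hi)
  rw [List.all_eq_true] at h2
  have h3 := h2 c hc
  simpa [Nat.blt_eq] using h3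

theorem cells_mask {i : ℕ} (hi : i < 80) {a b : ℕ} (ha : a ∈ cellsOf i) (hb : b ∈ cellsOf i) :
    Nat.land (pairMask a b) (maskOf i) = pairMask a b := by
  have h := table_mask
  rw [List.all_eq_true] at h
  have h2 := h i (List.mem_range.2 hi)
  rw [List.all_eq_true] at h2
  have h3 := h2 a ha
  rw [List.all_eq_true] at h3
  exact Nat.eq_of_beq_eq_true (h3 b hb)

section loops

variable (rec : ℕ → List ℕ → ℕ → ℕ → ℕ × Bool)
  (hrec : ∀ U' ch' F' c', (rec U' ch' F' c').2 = true → ∀ M, ¬ Sol U' ch' F' M)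
include hrec

theorem stepPair_sound (U : ℕ) (ch : List ℕ) (c F : ℕ) (ok : Bool) (a b : ℕ)
    (ha : a < 36) (hb : b < 36)
    (h : (stepPair rec U ch (c, F, ok) a b).2.2 = true) :
    ok = true ∧ (∀ M, Sol U ch F M → ¬ M a b) ∧
      (∀ M, Sol U ch F M → Sol U ch (stepPair rec U ch (c, F, ok) a b).2.1 M) := by
  unfold stepPair at h ⊢
  cases hF : bit F (pairKey a b)
  · simp only [hF, cond_false] at h ⊢
    rcases hr : rec (Nat.lor U (pairMask a b)) (pairMask a b :: ch) F c with ⟨c', ok'⟩
    rw [hr] at h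
    simp only [Bool.and_eq_true] at h
    obtain ⟨hok, hok'⟩ := h
    have hno := hrec (Nat.lor U (pairMask a b)) (pairMask a b :: ch) F c (by rw [hr]; exact hok')
    have claim1 : ∀ M, Sol U ch F M → ¬ M a b := by
      intro M hM hab
      apply hno (fun x y => M x y ∧ x ≠ a ∧ x ≠ b)
      refine ⟨?_, ?_, ?_, ?_, ?_, ?_, ?_⟩
      · rintro x y ⟨hxy, hxa, hxb⟩
        refine ⟨hM.symm x y hxy, ?_, ?_⟩
        · rintro rfl
          exact hxb (hM.func y b x hab (hM.symm x y hxy)).symm
        · rintro rfl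
          exact hxa (hM.func y a x (hM.symm a y hab) (hM.symm x y hxy)).symm
      · rintro x y z ⟨hxy, _, _⟩ ⟨hxz, _, _⟩
        exact hM.func x y z hxy hxz
      · rintro x ⟨hxx, _, _⟩
        exact hM.irrefl x hxx
      · rintro x y ⟨hxy, _, _⟩
        exact hM.lt x y hxy
      · rintro x y ⟨hxy, hxa, hxb⟩
        rw [bit_lor, hM.avoidU x y hxy]
        unfold pairMask
        rw [bit_lor, bit_pow, bit_pow]
        simp [Ne.symm hxa, Ne.symm hxb]
      · rintro x y ⟨hxy, _, _⟩
        exact hM.avoidF x y hxy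
      · intro i hi
        rcases hM.cover i hi with ⟨pm, hpm, hpm2⟩ | ⟨x, hx, y, hy, hxy⟩
        · exact Or.inl ⟨pm, List.mem_cons_of_mem _ hpm, hpm2⟩
        · by_cases hxa : x = a
          · subst hxa
            have : y = b := hM.func x y b hxy hab
            subst this
            exact Or.inl ⟨pairMask x y, List.mem_cons_self, cells_mask hi hx hy⟩
          · by_cases hxb : x = b
            · subst hxb
              have : y = a := hM.func x y a hxy (hM.symm a x hab)
              subst this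
              exact Or.inl ⟨pairMask y x, List.mem_cons_self, cells_mask hi hy hx⟩
            · exact Or.inr ⟨x, hx, y, hy, hxy, hxa, hxb⟩
    refine ⟨hok, claim1, ?_⟩
    intro M hM
    refine ⟨hM.symm, hM.func, hM.irrefl, hM.lt, hM.avoidU, ?_, hM.cover⟩
    intro x y hxy
    show bit (Nat.lor F (Nat.pow 2 (pairKey a b))) (pairKey x y) = false
    rw [bit_lor, hM.avoidF x y hxy, bit_pow]
    simp only [Bool.false_or, decide_eq_false_iff_not]
    intro hk
    have hx := hM.lt x y hxy
    have hy := hM.lt y x (hM.symm x y hxy)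
    rcases pairKey_inj ha hb hx hy hk with ⟨rfl, rfl⟩ | ⟨rfl, rfl⟩
    · exact claim1 M hM hxy
    · exact claim1 M hM (hM.symm _ _ hxy)
  · simp only [hF, cond_true] at h ⊢
    refine ⟨h, ?_, fun M hM => hM⟩
    intro M hM hab
    have := hM.avoidF a b hab
    rw [hF] at this
    exact absurd this (by simp)

theorem loopB_sound (U : ℕ) (ch : List ℕ) (a : ℕ) (ha : a < 36) :
    ∀ (l : List ℕ) (st : ℕ × ℕ × Bool), (∀ b ∈ l, b < 36) →
      (loopB rec U ch a l st).2.2 = true →
      st.2.2 = true ∧ (∀ M, Sol U ch st.2.1 M → ∀ b ∈ l, ¬ M a b) ∧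
        (∀ M, Sol U ch st.2.1 M → Sol U ch (loopB rec U ch a l st).2.1 M) := by
  intro l
  induction l with
  | nil =>
    intro st _ h
    exact ⟨h, fun M _ b hb => absurd hb (by simp), fun M hM => hM⟩
  | cons b l ih =>
    intro st hl h
    obtain ⟨c, F, ok⟩ := st
    unfold loopB at h ⊢
    have hl' : ∀ b' ∈ l, b' < 36 := fun b' hb' => hl b' (List.mem_cons_of_mem _ hb')
    obtain ⟨h1, h2, h3⟩ := ih (stepPair rec U ch (c, F, ok) a b) hl' h
    obtain ⟨g1, g2, g3⟩ := stepPair_sound rec hrec U ch c F ok a b ha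
      (hl b List.mem_cons_self) h1
    refine ⟨g1, ?_, fun M hM => h3 M (g3 M hM)⟩
    intro M hM b' hb'
    rcases List.mem_cons.1 hb' with rfl | hb''
    · exact g2 M hM
    · exact h2 M (g3 M hM) b' hb''

theorem loopA_sound (U : ℕ) (ch : List ℕ) :
    ∀ (l : List ℕ) (st : ℕ × ℕ × Bool), (∀ x ∈ l, x < 36) →
      (loopA rec U ch l st).2.2 = true →
      st.2.2 = true ∧ (∀ M, Sol U ch st.2.1 M → l.Pairwise (fun a b => ¬ M a b)) := by
  intro l
  induction l with
  | nil =>
    intro st _ h
    exact ⟨h, fun M _ => List.Pairwise.nil⟩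
  | cons a l ih =>
    intro st hl h
    unfold loopA at h
    have hl' : ∀ b' ∈ l, b' < 36 := fun b' hb' => hl b' (List.mem_cons_of_mem _ hb')
    obtain ⟨h1, h2⟩ := ih (loopB rec U ch a l st) hl' h
    obtain ⟨g1, g2, g3⟩ := loopB_sound rec hrec U ch a (hl a List.mem_cons_self) l st hl' h1
    refine ⟨g1, fun M hM => ?_⟩
    rw [List.pairwise_cons]
    exact ⟨g2 M hM, h2 M (g3 M hM)⟩

end loops

theorem refute_sound : ∀ (fuel U : ℕ) (ch : List ℕ) (F cert : ℕ),
    (refute fuel U ch F cert).2 = true → ∀ M, ¬ Sol U ch F M := by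
  intro fuel
  induction fuel with
  | zero =>
    intro U ch F cert h
    simp [refute] at h
  | succ fuel ih =>
    intro U ch F cert h M hM
    unfold refute at h
    cases h80 : Nat.blt (Nat.mod cert 128) 80
    · rw [h80] at h
      simp at h
    · rw [h80] at h
      simp only [cond_true] at h
      have hi : Nat.mod cert 128 < 80 := by simpa [Nat.blt_eq] using h80
      cases hcov : covered (maskOf (Nat.mod cert 128)) ch
      · rw [hcov] at h
        simp only [cond_false] at h
        have hlt : ∀ x ∈ freeCells U (cellsOf (Nat.mod cert 128)), x < 36 := by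
          intro x hx
          exact cells_lt hi ((mem_freeCells _ _ _).1 hx).1
        have h' : (loopA (refute fuel) U ch (freeCells U (cellsOf (Nat.mod cert 128)))
            (Nat.div cert 128, F, true)).2.2 = true := by
          rcases hl : loopA (refute fuel) U ch (freeCells U (cellsOf (Nat.mod cert 128)))
            (Nat.div cert 128, F, true) with ⟨c', F', ok⟩
          rw [hl] at h
          exact h
        obtain ⟨_, hpw⟩ := loopA_sound (refute fuel) ih U ch _ _ hlt h'
        have hpw' := hpw M hM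
        rcases hM.cover _ hi with hc | ⟨a, ha, b, hb, hab⟩
        · rw [← covered_iff] at hc
          rw [hcov] at hc
          exact absurd hc (by simp)
        · have hfa : a ∈ freeCells U (cellsOf (Nat.mod cert 128)) :=
            (mem_freeCells _ _ _).2 ⟨ha, hM.avoidU a b hab⟩
          have hfb : b ∈ freeCells U (cellsOf (Nat.mod cert 128)) :=
            (mem_freeCells _ _ _).2 ⟨hb, hM.avoidU b a (hM.symm a b hab)⟩
          have : Std.Symm (fun a b => ¬ M a b) := ⟨fun x y hxy hyx => hxy (hM.symm y x hyx)⟩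
          exact List.Pairwise.forall_of_forall (fun x _ => hM.irrefl x) hpw' hfa hfb hab
      · rw [hcov] at h
        simp at h

theorem no_sol6 (M : ℕ → ℕ → Prop) : ¬ Sol 0 [] 0 M :=
  refute_sound 25 0 [] 0 cert6 cert6_ok M

end Vale.Agent.Lib.Helper8.Snaky
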