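import Vale.Agent.Lib.Helper8.Snaky.Bands

namespace Vale.Agent.Lib.Helper8.Snaky

theorem pair_eq_of_mem {f : ℤ × ℤ → ℤ × ℤ} (hf : ∀ p, f (f p) = p) {p q z : ℤ × ℤ}
    (hz : z ∈ ({p, f p} : Finset (ℤ × ℤ))) (hz' : z ∈ ({q, f q} : Finset (ℤ × ℤ))) :
    ({p, f p} : Finset (ℤ × ℤ)) = {q, f q} := by
  simp only [Finset.mem_insert, Finset.mem_singleton] at hz hz'
  rcases hz with rfl | rfl <;> rcases hz' with h | h
  · rw [h]
  · rw [h, hf, Finset.pair_comm]
  · rw [← h, hf, Finset.pair_comm]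
  · have : p = q := by rw [← hf p, h, hf]
    rw [this]

/-- A pairing strategy from an involution `f` that has a two-cycle inside every allowed copy
lying in the board. -/
theorem pairing_of_involution (B : Set (ℤ × ℤ)) (f : ℤ × ℤ → ℤ × ℤ) (hf : ∀ p, f (f p) = p)
    (hcov : ∀ C : Finset (ℤ × ℤ), IsCopy C → (↑C : Set (ℤ × ℤ)) ⊆ B →
      ∃ p ∈ C, f p ∈ C ∧ f p ≠ p) :
    ∃ P, IsPairing B P := by
  refine ⟨{e | ∃ p : ℤ × ℤ, f p ≠ p ∧ e = {p, f p} ∧ (↑e : Set (ℤ × ℤ)) ⊆ B}, ?_, ?_, ?_⟩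
  · rintro e ⟨p, hp, rfl, hB⟩
    exact ⟨Finset.card_pair (Ne.symm hp), hB⟩
  · rintro e ⟨p, hp, rfl, _⟩ e' ⟨q, hq, rfl, _⟩ hne
    rw [Finset.disjoint_left]
    intro z hz hz'
    exact hne (pair_eq_of_mem hf hz hz')
  · intro C hC hCB
    obtain ⟨p, hp, hfp, hne⟩ := hcov C hC hCB
    have hsub : ({p, f p} : Finset (ℤ × ℤ)) ⊆ C := by
      intro z hz
      simp only [Finset.mem_insert, Finset.mem_singleton] at hz
      rcases hz with rfl | rfl
      · exact hp
      · exact hfp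
    refine ⟨{p, f p}, ⟨p, hne, rfl, ?_⟩, hsub⟩
    intro z hz
    exact hCB (Finset.mem_coe.2 (hsub (Finset.mem_coe.1 hz)))

/-- Boards inside the five rows `0 ≤ y < 5` admit a pairing strategy. -/
theorem pairing_rows (B : Set (ℤ × ℤ)) (hB : ∀ p ∈ B, 0 ≤ p.2 ∧ p.2 < 5) :
    ∃ P, IsPairing B P := by
  apply pairing_of_involution B mate mate_mate
  intro C hC hCB
  apply copy_has_pair C hC
  right
  refine ⟨0, fun p hp => ?_⟩
  have := hB p (hCB (Finset.mem_coe.2 hp))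
  omega

theorem isCopy_swap {C : Finset (ℤ × ℤ)} (hC : IsCopy C) : IsCopy (C.image Prod.swap) := by
  obtain ⟨t, a, b, sw, ha, hb, rfl⟩ := hC
  refine ⟨t.swap, b, a, !sw, hb, ha, ?_⟩
  rw [Finset.image_image]
  congr 1
  funext p
  cases sw <;> simp [signedPerm]

/-- Boards inside the five columns `0 ≤ x < 5` admit a pairing strategy. -/
theorem pairing_cols (B : Set (ℤ × ℤ)) (hB : ∀ p ∈ B, 0 ≤ p.1 ∧ p.1 < 5) :
    ∃ P, IsPairing B P := by
  apply pairing_of_involution B (fun p => (mate p.swap).swap)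
  · intro p
    simp [mate_mate]
  · intro C hC hCB
    have hC' := isCopy_swap hC
    obtain ⟨q, hq, hmq, hne⟩ := copy_has_pair (C.image Prod.swap) hC' (by
      right
      refine ⟨0, fun p hp => ?_⟩
      obtain ⟨p', hp', rfl⟩ := Finset.mem_image.1 hp
      have := hB p' (hCB (Finset.mem_coe.2 hp'))
      simpa using this)
    obtain ⟨p, hp, rfl⟩ := Finset.mem_image.1 hq
    obtain ⟨p', hp', hpe⟩ := Finset.mem_image.1 hmq
    refine ⟨p, hp, ?_, ?_⟩
    · show (mate p.swap).swap ∈ C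
      rw [← hpe]
      simpa using hp'
    · show (mate p.swap).swap ≠ p
      intro h
      apply hne
      have h2 := congrArg Prod.swap h
      simpa using h2

end Vale.Agent.Lib.Helper8.Snaky
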